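import Vale.Agent.P140.Gauss

namespace Vale.Agent.P140

open MeasureTheory Real

variable {G : Phase → ℝ}

section basic

variable (hm : AEStronglyMeasurable G volume) (h0 : ∀ᵐ z, 0 ≤ G z)
  (hI : Integrable (fun z : Phase => G z * (1 + ‖z.2‖ ^ 2 + |log (G z)|)))

include hm h0 hI

theorem int_G : Integrable G := by
  refine hI.mono' hm ?_
  filter_upwards [h0] with z hz
  rw [norm_of_nonneg hz]
  have : (1 : ℝ) ≤ 1 + ‖z.2‖ ^ 2 + |log (G z)| := by
    have := abs_nonneg (log (G z)); have := sq_nonneg ‖z.2‖; linarith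
  nlinarith

theorem int_energy : Integrable (fun z : Phase => ‖z.2‖ ^ 2 * G z) := by
  refine hI.mono' ?_ ?_
  · exact (by fun_prop : AEStronglyMeasurable (fun z : Phase => ‖z.2‖ ^ 2) volume).mul hm
  filter_upwards [h0] with z hz
  rw [norm_of_nonneg (by positivity)]
  have : ‖z.2‖ ^ 2 ≤ 1 + ‖z.2‖ ^ 2 + |log (G z)| := by
    have := abs_nonneg (log (G z)); linarith
  nlinarith

theorem int_momentum : Integrable (fun z : Phase => G z • z.2) := by
  refine hI.mono' ?_ ?_
  · exact hm.smul (by fun_prop)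
  filter_upwards [h0] with z hz
  rw [norm_smul, norm_of_nonneg hz]
  have : ‖z.2‖ ≤ 1 + ‖z.2‖ ^ 2 + |log (G z)| := by
    have := abs_nonneg (log (G z)); nlinarith [sq_nonneg (‖z.2‖ - 1)]
  exact mul_le_mul_of_nonneg_left this hz

theorem int_GlogG : Integrable (fun z : Phase => G z * log (G z)) := by
  refine hI.mono' ?_ ?_
  · exact hm.mul (measurable_log.comp_aemeasurable hm.aemeasurable).aestronglyMeasurable
  filter_upwards [h0] with z hz
  rw [norm_mul, norm_of_nonneg hz, Real.norm_eq_abs]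
  have : |log (G z)| ≤ 1 + ‖z.2‖ ^ 2 + |log (G z)| := by
    have := sq_nonneg ‖z.2‖; linarith
  exact mul_le_mul_of_nonneg_left this hz

end basic

theorem int_maxwellian (ρ : ℝ) (u : V3) (θ : ℝ) (hρ : 0 < ρ) (hθ : 0 < θ) :
    Integrable (maxwellian ρ u θ) :=
  int_G (measurable_maxwellian ρ u θ).aestronglyMeasurable
    (Filter.Eventually.of_forall fun z => (maxwellian_pos ρ u θ hρ hθ z).le)
    (maxwellian_moments ρ u θ hρ hθ)

/-- pointwise formula for the relative entropy density with respect to a Maxwellian -/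
theorem density_formula (ρ : ℝ) (u : V3) (θ : ℝ) (hρ : 0 < ρ) (hθ : 0 < θ) (z : Phase)
    (g : ℝ) (hg : 0 ≤ g) :
    g * log (g / maxwellian ρ u θ z) - g + maxwellian ρ u θ z
      = g * log g + (1 / (2 * θ)) * (‖z.2‖ ^ 2 * g) - (1 / θ) * inner ℝ u (g • z.2)
        + (‖u‖ ^ 2 / (2 * θ) - log (ρ * (2 * π * θ) ^ (-(3 / 2 : ℝ))) - 1) * g
        + maxwellian ρ u θ z := by
  rcases hg.eq_or_lt with h | h
  · subst h; simp
  · rw [log_div h.ne' (maxwellian_pos ρ u θ hρ hθ z).ne', log_maxwellian ρ u θ hρ hθ z,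
      norm_sub_sq_real, inner_smul_right, real_inner_comm]
    field_simp
    ring

/-- integral formula -/
theorem integral_formula (ρ : ℝ) (u : V3) (θ : ℝ) (hρ : 0 < ρ) (hθ : 0 < θ)
    (hm : AEStronglyMeasurable G volume) (h0 : ∀ᵐ z, 0 ≤ G z)
    (hI : Integrable (fun z : Phase => G z * (1 + ‖z.2‖ ^ 2 + |log (G z)|))) :
    Integrable (fun z => G z * log (G z / maxwellian ρ u θ z) - G z + maxwellian ρ u θ z) ∧
    ∫ z, (G z * log (G z / maxwellian ρ u θ z) - G z + maxwellian ρ u θ z)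
      = (∫ z, G z * log (G z)) + (1 / (2 * θ)) * (∫ z : Phase, ‖z.2‖ ^ 2 * G z)
        - (1 / θ) * inner ℝ u (∫ z : Phase, G z • z.2)
        + (‖u‖ ^ 2 / (2 * θ) - log (ρ * (2 * π * θ) ^ (-(3 / 2 : ℝ))) - 1) * (∫ z, G z)
        + ∫ z, maxwellian ρ u θ z := by
  have i1 := int_GlogG hm h0 hI
  have i2 := (int_energy hm h0 hI).const_mul (1 / (2 * θ))
  have i3' : Integrable (fun z : Phase => inner ℝ u (G z • z.2)) :=
    (int_momentum hm h0 hI).const_inner u
  have i3 := i3'.const_mul (1 / θ)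
  have i4 := (int_G hm h0 hI).const_mul
    (‖u‖ ^ 2 / (2 * θ) - log (ρ * (2 * π * θ) ^ (-(3 / 2 : ℝ))) - 1)
  have i5 := int_maxwellian ρ u θ hρ hθ
  have hae : (fun z => G z * log (G z / maxwellian ρ u θ z) - G z + maxwellian ρ u θ z)
      =ᵐ[volume] (fun z : Phase => G z * log (G z) + (1 / (2 * θ)) * (‖z.2‖ ^ 2 * G z)
        - (1 / θ) * inner ℝ u (G z • z.2)
        + (‖u‖ ^ 2 / (2 * θ) - log (ρ * (2 * π * θ) ^ (-(3 / 2 : ℝ))) - 1) * G z
        + maxwellian ρ u θ z) := by
    filter_upwards [h0] with z hz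
    exact density_formula ρ u θ hρ hθ z (G z) hz
  have itot := (((i1.add i2).sub i3).add i4).add i5
  refine ⟨itot.congr hae.symm, ?_⟩
  rw [integral_congr_ae hae]
  have e := integral_add (((i1.add i2).sub i3).add i4) i5
  have e2 := integral_add ((i1.add i2).sub i3) i4
  have e3 := integral_sub (i1.add i2) i3
  have e4 := integral_add i1 i2
  simp only [Pi.add_apply, Pi.sub_apply] at e e2 e3 e4
  rw [e, e2, e3, e4, integral_const_mul, integral_const_mul, integral_const_mul,
    integral_inner (int_momentum hm h0 hI)]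

end Vale.Agent.P140
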