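import Mathlib

namespace Vale.Agent.P140

open MeasureTheory Real

/-- velocity space `ℝ³` -/
abbrev V3 := EuclideanSpace ℝ (Fin 3)

/-- phase space `Ω = 𝕋³ × ℝ³` with its product measure (`𝕋³ = ℝ³/ℤ³` has total mass one) -/
abbrev Phase := UnitAddTorus (Fin 3) × V3

/-- the spatially homogeneous Maxwellian with density `ρ`, bulk velocity `u`, temperature `θ` -/
noncomputable def maxwellian (ρ : ℝ) (u : V3) (θ : ℝ) : Phase → ℝ :=
  fun z => ρ * (2 * π * θ) ^ (-(3 / 2 : ℝ)) * exp (-‖z.2 - u‖ ^ 2 / (2 * θ))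

/-- the reference Maxwellian `M = (2π)^{-3/2} exp(-|v|²/2)` -/
noncomputable def stdM : Phase → ℝ :=
  fun z => (2 * π) ^ (-(3 / 2 : ℝ)) * exp (-‖z.2‖ ^ 2 / 2)

/-- the relative entropy `H_M(F) = ∫_Ω (F log (F/M) - F + M)` -/
noncomputable def relEntropy (F : Phase → ℝ) : ℝ :=
  ∫ z, (F z * log (F z / stdM z) - F z + stdM z)

/-- The global properties of a renormalized entropy solution `F` with datum `F0` that are used:
for each time `t ≥ 0`: measurability, nonnegativity, finiteness of `∫ F (1 + |v|² + |log F|)`,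
conservation of total mass and total momentum, the energy inequality and the relative entropy
inequality (with the nonnegative entropy production term dropped). -/
structure GlobalBounds (F0 : Phase → ℝ) (F : ℝ → Phase → ℝ) : Prop where
  meas : ∀ t, 0 ≤ t → AEStronglyMeasurable (F t) volume
  nonneg : ∀ t, 0 ≤ t → ∀ᵐ z, 0 ≤ F t z
  moments : ∀ t, 0 ≤ t → Integrable (fun z : Phase => F t z * (1 + ‖z.2‖ ^ 2 + |log (F t z)|))
  mass : ∀ t, 0 ≤ t → ∫ z, F t z = ∫ z, F0 z
  momentum : ∀ t, 0 ≤ t → ∫ z : Phase, F t z • z.2 = ∫ z : Phase, F0 z • z.2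
  energy : ∀ t, 0 ≤ t → ∫ z : Phase, ‖z.2‖ ^ 2 * F t z ≤ ∫ z : Phase, ‖z.2‖ ^ 2 * F0 z
  entropy : ∀ t, 0 ≤ t → relEntropy (F t) ≤ relEntropy F0

end Vale.Agent.P140
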