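import Vale.Agent.P140.Defs

namespace Vale.Agent.P140

open MeasureTheory Real

theorem integrable_gauss (b : ℝ) (hb : 0 < b) : Integrable (fun v : V3 => exp (-b * ‖v‖ ^ 2)) := by
  by_contra h
  have h1 := GaussianFourier.integral_rexp_neg_mul_sq_norm (V := V3) hb
  rw [integral_undef h] at h1
  have : (0 : ℝ) < (π / b) ^ (Module.finrank ℝ V3 / 2 : ℝ) := by positivity
  linarith

theorem integrable_gauss_shift (b : ℝ) (hb : 0 < b) (u : V3) :
    Integrable (fun v : V3 => exp (-b * ‖v - u‖ ^ 2)) :=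
  (integrable_gauss b hb).comp_sub_right u

theorem maxwellian_pos (ρ : ℝ) (u : V3) (θ : ℝ) (hρ : 0 < ρ) (hθ : 0 < θ) (z : Phase) :
    0 < maxwellian ρ u θ z := by
  unfold maxwellian
  positivity

theorem stdM_eq : stdM = maxwellian 1 0 1 := by
  funext z
  simp [stdM, maxwellian]

theorem log_maxwellian (ρ : ℝ) (u : V3) (θ : ℝ) (hρ : 0 < ρ) (hθ : 0 < θ) (z : Phase) :
    log (maxwellian ρ u θ z)
      = log (ρ * (2 * π * θ) ^ (-(3 / 2 : ℝ))) - ‖z.2 - u‖ ^ 2 / (2 * θ) := by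
  unfold maxwellian
  rw [log_mul (by positivity) (by positivity), log_exp]
  ring

theorem measurable_maxwellian (ρ : ℝ) (u : V3) (θ : ℝ) : Measurable (maxwellian ρ u θ) := by
  unfold maxwellian
  fun_prop

theorem maxwellian_moments (ρ : ℝ) (u : V3) (θ : ℝ) (hρ : 0 < ρ) (hθ : 0 < θ) :
    Integrable (fun z : Phase =>
      maxwellian ρ u θ z * (1 + ‖z.2‖ ^ 2 + |log (maxwellian ρ u θ z)|)) := by
  set a0 : ℝ := ρ * (2 * π * θ) ^ (-(3 / 2 : ℝ)) with ha0
  have ha0pos : 0 < a0 := by positivity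
  set b : ℝ := 1 / (2 * θ) with hb
  have hbpos : 0 < b := by positivity
  set c1 : ℝ := 1 + 2 * ‖u‖ ^ 2 + |log a0| with hc1
  set c2 : ℝ := 2 + b with hc2
  have hc1pos : 0 ≤ c1 := by positivity
  have hc2pos : 0 ≤ c2 := by positivity
  set K : ℝ := a0 * (c1 + 2 * c2 / b) with hK
  have hg : Integrable (fun z : Phase => K * exp (-(b / 2) * ‖z.2 - u‖ ^ 2)) :=
    ((integrable_gauss_shift (b / 2) (by positivity) u).const_mul K).comp_snd _
  refine hg.mono' ?_ ?_
  · apply Measurable.aestronglyMeasurable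
    have := measurable_maxwellian ρ u θ
    fun_prop
  · refine Filter.Eventually.of_forall (fun z => ?_)
    have hpos := maxwellian_pos ρ u θ hρ hθ z
    rw [norm_mul, norm_of_nonneg hpos.le, norm_of_nonneg (by positivity)]
    set w : ℝ := ‖z.2 - u‖ with hw
    have hw0 : 0 ≤ w := norm_nonneg _
    have hlog : |log (maxwellian ρ u θ z)| ≤ |log a0| + b * w ^ 2 := by
      rw [log_maxwellian ρ u θ hρ hθ z]
      have e : ‖z.2 - u‖ ^ 2 / (2 * θ) = b * w ^ 2 := by rw [hb, hw]; ring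
      rw [e]
      calc |log a0 - b * w ^ 2| ≤ |log a0| + |b * w ^ 2| := abs_sub _ _
        _ = |log a0| + b * w ^ 2 := by rw [abs_of_nonneg (by positivity : 0 ≤ b * w ^ 2)]
    have hv : ‖z.2‖ ^ 2 ≤ 2 * w ^ 2 + 2 * ‖u‖ ^ 2 := by
      have h1 : ‖z.2‖ ≤ w + ‖u‖ := by
        calc ‖z.2‖ = ‖(z.2 - u) + u‖ := by rw [sub_add_cancel]
          _ ≤ w + ‖u‖ := norm_add_le _ _
      have h2 : ‖z.2‖ ^ 2 ≤ (w + ‖u‖) ^ 2 := pow_le_pow_left₀ (norm_nonneg _) h1 2
      nlinarith [sq_nonneg (w - ‖u‖)]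
    have hfac : 1 + ‖z.2‖ ^ 2 + |log (maxwellian ρ u θ z)| ≤ c1 + c2 * w ^ 2 := by
      rw [hc1, hc2]; nlinarith
    have hM : maxwellian ρ u θ z = a0 * exp (-(b * w ^ 2)) := by
      unfold maxwellian
      rw [← ha0]
      congr 2
      rw [hb, hw]; ring
    have hexp : exp (-(b * w ^ 2)) = exp (-(b / 2) * w ^ 2) * exp (-(b / 2) * w ^ 2) := by
      rw [← exp_add]; congr 1; ring
    have hsmall : w ^ 2 * exp (-(b / 2) * w ^ 2) ≤ 2 / b := by
      have h1 : (b / 2) * w ^ 2 + 1 ≤ exp ((b / 2) * w ^ 2) := add_one_le_exp _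
      have h2 : exp (-(b / 2) * w ^ 2) = (exp ((b / 2) * w ^ 2))⁻¹ := by
        rw [← exp_neg]; congr 1; ring
      rw [h2, ← div_eq_mul_inv, div_le_iff₀ (exp_pos _)]
      have h3 : w ^ 2 = 2 / b * ((b / 2) * w ^ 2) := by field_simp
      calc w ^ 2 = 2 / b * ((b / 2) * w ^ 2) := h3
        _ ≤ 2 / b * exp ((b / 2) * w ^ 2) := by
          apply mul_le_mul_of_nonneg_left _ (by positivity)
          linarith
    set E : ℝ := exp (-(b / 2) * w ^ 2) with hE
    have hEpos : 0 < E := exp_pos _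
    have hE1 : E ≤ 1 := by
      rw [hE]; apply exp_le_one_iff.2
      have : 0 ≤ b / 2 * w ^ 2 := by positivity
      linarith
    calc maxwellian ρ u θ z * (1 + ‖z.2‖ ^ 2 + |log (maxwellian ρ u θ z)|)
        ≤ maxwellian ρ u θ z * (c1 + c2 * w ^ 2) := mul_le_mul_of_nonneg_left hfac hpos.le
      _ = a0 * (c1 * E + c2 * (w ^ 2 * E)) * E := by rw [hM, hexp]; ring
      _ ≤ a0 * (c1 * 1 + c2 * (2 / b)) * E := by
          apply mul_le_mul_of_nonneg_right _ hEpos.le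
          apply mul_le_mul_of_nonneg_left _ ha0pos.le
          have h5 : c1 * E ≤ c1 * 1 := mul_le_mul_of_nonneg_left hE1 hc1pos
          have h6 : c2 * (w ^ 2 * E) ≤ c2 * (2 / b) := mul_le_mul_of_nonneg_left hsmall hc2pos
          linarith
      _ = K * E := by rw [hK]; ring

end Vale.Agent.P140
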